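import Vale.Agent.Lib.P237.AllK.Cauchy

open MeasureTheory Set Module Filter Topology
open scoped RealInnerProductSpace Pointwise ENNReal

namespace Vale.Agent.Lib.P237.Petty.AllK

open Vale.Agent.Lib.P237 Vale.Agent.Lib.P227

noncomputable section

set_option linter.unusedSectionVars false
set_option linter.deprecated false

lemma bdd_inner {K : Set E3} (hK : IsCompact K) (n : E3) :
    BddAbove ((fun x : E3 => ⟪x, n⟫) '' K) :=
  (hK.image (continuous_id.inner continuous_const)).bddAbove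

lemma le_supp {K : Set E3} (hK : IsCompact K) {x : E3} (hx : x ∈ K) (n : E3) : ⟪x, n⟫ ≤ supp K n :=
  le_csSup (bdd_inner hK n) ⟨x, hx, rfl⟩

lemma supp_le {K : Set E3} (hne : K.Nonempty) {n : E3} {c : ℝ} (h : ∀ x ∈ K, ⟪x, n⟫ ≤ c) :
    supp K n ≤ c := by
  apply csSup_le (hne.image _)
  rintro _ ⟨x, hx, rfl⟩
  exact h x hx

/-- Separation of a point from a compact convex set by a unit vector. -/
lemma exists_sep {K : Set E3} (hK : IsCompact K) (hKc : Convex ℝ K) (hne : K.Nonempty) {y : E3}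
    (hy : y ∉ K) : ∃ n : E3, ‖n‖ = 1 ∧ supp K n < ⟪y, n⟫ := by
  obtain ⟨f, u, hf, hu⟩ := geometric_hahn_banach_closed_point hKc hK.isClosed hy
  set v := (InnerProductSpace.toDual ℝ E3).symm f with hv
  have hfv : ∀ x, f x = ⟪x, v⟫ := by
    intro x
    rw [real_inner_comm, hv, InnerProductSpace.toDual_symm_apply]
  have hv0 : v ≠ 0 := by
    intro h
    obtain ⟨a, ha⟩ := hne
    have h1 := hf a ha
    rw [hfv, h, inner_zero_right] at h1 hu
    linarith
  have hnv : 0 < ‖v‖ := norm_pos_iff.mpr hv0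
  refine ⟨‖v‖⁻¹ • v, unit_of_ne hv0, ?_⟩
  have h1 : supp K (‖v‖⁻¹ • v) ≤ ‖v‖⁻¹ * u := by
    apply supp_le hne
    intro x hx
    rw [inner_smul_right, ← hfv]
    exact mul_le_mul_of_nonneg_left (hf x hx).le (by positivity)
  have h2 : ‖v‖⁻¹ * u < ⟪y, ‖v‖⁻¹ • v⟫ := by
    rw [inner_smul_right, ← hfv]
    exact mul_lt_mul_of_pos_left hu (by positivity)
  linarith

/-- Polytope approximation from outside. -/
theorem exists_poly {K : Set E3} (hK : IsCompact K) (hKc : Convex ℝ K) {ρ : ℝ} (hρ : 0 < ρ)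
    (hB : Metric.closedBall (0 : E3) ρ ⊆ K) {ε : ℝ} (hε : 0 < ε) :
    ∃ N : Finset E3, (∀ n ∈ N, ‖n‖ = 1) ∧ K ⊆ poly N (supp K) ∧ poly N (supp K) ⊆ (1 + ε) • K := by
  have h0 : (0 : E3) ∈ K := hB (by simp [hρ.le])
  have hnhds : K ∈ 𝓝 (0 : E3) := Filter.mem_of_superset (Metric.closedBall_mem_nhds 0 hρ) hB
  have habs : Absorbent ℝ K := absorbent_nhds_zero hnhds
  have hgc : Continuous (gauge K) := continuous_gauge hKc hnhds
  have hmem : ∀ {x : E3}, gauge K x ≤ 1 → x ∈ K := by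
    intro x hx
    have := (gauge_le_one_iff_mem_closure hKc hnhds).mp hx
    rwa [hK.isClosed.closure_eq] at this
  have hε1 : 0 < 1 + ε := by linarith
  have hscale : ∀ {x : E3}, gauge K x ≤ 1 + ε → x ∈ (1 + ε) • K := by
    intro x hx
    refine (mem_smul_set_iff_inv_smul_mem₀ hε1.ne' _ _).mpr (hmem ?_)
    rw [gauge_smul_of_nonneg (by positivity), smul_eq_mul]
    rw [inv_mul_le_iff₀ hε1]
    linarith
  set C : Set E3 := {y | gauge K y = 1 + ε} with hC
  have hCc : IsCompact C :=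
    (hK.smul (1 + ε)).of_isClosed_subset (isClosed_eq hgc continuous_const) fun y hy =>
      hscale (le_of_eq hy)
  have hsep : ∀ y ∈ C, ∃ n : E3, ‖n‖ = 1 ∧ supp K n < ⟪y, n⟫ := by
    intro y hy
    apply exists_sep hK hKc ⟨0, h0⟩
    intro hyK
    have h1 := gauge_le_one_of_mem hyK
    have h2 : gauge K y = 1 + ε := hy
    linarith
  choose! nn hnn1 hnn2 using hsep
  obtain ⟨t, htC, ht⟩ := hCc.elim_nhds_subcover (fun y => {z | supp K (nn y) < ⟪z, nn y⟫}) (by
    intro y hy
    apply (isOpen_lt continuous_const (continuous_id.inner continuous_const)).mem_nhds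
    exact hnn2 y hy)
  classical
  refine ⟨t.image nn, ?_, ?_, ?_⟩
  · intro n hn
    obtain ⟨y, hy, rfl⟩ := Finset.mem_image.mp hn
    exact hnn1 y (htC y hy)
  · intro x hx n _
    exact le_supp hK hx n
  · intro x hx
    apply hscale
    by_contra hlt
    have hg : 1 + ε < gauge K x := not_le.mp hlt
    have hg0 : 0 < gauge K x := by linarith
    set τ := (1 + ε) / gauge K x with hτ
    have hτ0 : 0 < τ := by positivity
    have hτ1 : τ < 1 := by
      rw [hτ, div_lt_one hg0]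
      exact hg
    have hyC : τ • x ∈ C := by
      show gauge K (τ • x) = 1 + ε
      rw [gauge_smul_of_nonneg hτ0.le, smul_eq_mul, hτ]
      field_simp
    have hcov := ht hyC
    simp only [mem_iUnion, exists_prop] at hcov
    obtain ⟨y, hyt, hy⟩ := hcov
    have hn : nn y ∈ t.image nn := Finset.mem_image_of_mem nn hyt
    have h1 : ⟪x, nn y⟫ ≤ supp K (nn y) := hx _ hn
    have h2 : supp K (nn y) < ⟪τ • x, nn y⟫ := hy
    rw [real_inner_smul_left] at h2
    have h3 : 0 ≤ supp K (nn y) := by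
      have := le_supp hK h0 (nn y)
      simpa using this
    rcases le_or_gt 0 ⟪x, nn y⟫ with h4 | h4
    · nlinarith
    · nlinarith

/-- A zonotope whose support function sandwiches the projected area of `K`. -/
theorem exists_gens {K : Set E3} (hK : IsCompact K) (hKc : Convex ℝ K) {ρ : ℝ} (hρ : 0 < ρ)
    (hB : Metric.closedBall (0 : E3) ρ ⊆ K) {ε : ℝ} (hε : 0 < ε) :
    ∃ (ι : Type) (_ : Fintype ι) (g : ι → E3), ∀ u : E3, ‖u‖ = 1 →
      projArea K u ≤ ∑ i, |⟪g i, u⟫| ∧ ∑ i, |⟪g i, u⟫| ≤ (1 + ε) ^ 2 * projArea K u := by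
  obtain ⟨N, hN, h1, h2⟩ := exists_poly hK hKc hρ hB hε
  have hPc : IsCompact (poly N (supp K)) :=
    (hK.smul (1 + ε)).of_isClosed_subset (poly_closed _ _) h2
  refine ⟨N, inferInstance, fun n => (2⁻¹ * facetArea N (supp K) n.1) • n.1, fun u hu => ?_⟩
  have e : ∑ i : N, |⟪(2⁻¹ * facetArea N (supp K) i.1) • i.1, u⟫|
      = projArea (poly N (supp K)) u := by
    rw [projArea_poly hPc hN hu]
    exact Finset.sum_coe_sort N (fun n => |⟪(2⁻¹ * facetArea N (supp K) n) • n, u⟫|)
  rw [e]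
  constructor
  · have := projArea_le_of_subset hK hPc (t := 1) zero_le_one (by simpa using h1) hu
    simpa using this
  · exact projArea_le_of_subset hPc hK (by linarith) h2 hu

end

end Vale.Agent.Lib.P237.Petty.AllK
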