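import Vale.Agent.Lib.P237.AllK.Mink
import Vale.Agent.Lib.P237.PettySec

open MeasureTheory Set Module Filter Topology
open scoped RealInnerProductSpace Pointwise ENNReal

namespace Vale.Agent.Lib.P237.Petty.AllK

open Vale.Agent.Lib.P237 Vale.Agent.Lib.P227

noncomputable section

set_option linter.unusedSectionVars false
set_option linter.unnecessarySimpa false
set_option linter.unreachableTactic false
set_option linter.unusedTactic false
set_option linter.deprecated false

/-- A polytope given by finitely many half spaces. -/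
def poly (N : Finset E3) (β : E3 → ℝ) : Set E3 := {x | ∀ n ∈ N, ⟪x, n⟫ ≤ β n}

/-- The facet of a polytope with outer normal `n`. -/
def facet (N : Finset E3) (β : E3 → ℝ) (n : E3) : Set E3 := {x | x ∈ poly N β ∧ ⟪x, n⟫ = β n}

lemma poly_closed (N : Finset E3) (β : E3 → ℝ) : IsClosed (poly N β) := by
  have : poly N β = ⋂ n ∈ N, {x | ⟪x, n⟫ ≤ β n} := by
    ext x
    simp [poly]
  rw [this]
  exact isClosed_biInter fun n _ => isClosed_le (continuous_id.inner continuous_const) continuous_const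

lemma facet_closed (N : Finset E3) (β : E3 → ℝ) (n : E3) : IsClosed (facet N β n) := by
  have : facet N β n = poly N β ∩ {x | ⟪x, n⟫ = β n} := rfl
  rw [this]
  exact (poly_closed N β).inter (isClosed_eq (continuous_id.inner continuous_const) continuous_const)

lemma facet_compact {N : Finset E3} {β : E3 → ℝ} (hP : IsCompact (poly N β)) (n : E3) :
    IsCompact (facet N β n) :=
  hP.of_isClosed_subset (facet_closed N β n) fun _ hx => hx.1

section basis

variable (b : OrthonormalBasis (Fin 3) ℝ E3)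

lemma bn (i j : Fin 3) (h : i ≠ j) : ⟪b i, b j⟫ = 0 := b.orthonormal.2 h

lemma bs (i : Fin 3) : ⟪b i, b i⟫ = 1 := by
  rw [real_inner_self_eq_norm_sq, b.norm_eq_one]; norm_num

/-- Expansion of a vector in the basis. -/
lemma expand (x : E3) : x = ⟪b 0, x⟫ • b 0 + ⟪b 1, x⟫ • b 1 + ⟪b 2, x⟫ • b 2 := by
  have := b.sum_repr' x
  rw [Fin.sum_univ_three] at this
  exact this.symm

lemma inner_expand (x y : E3) : ⟪x, y⟫ = ⟪b 0, x⟫ * ⟪b 0, y⟫ + ⟪b 1, x⟫ * ⟪b 1, y⟫ + ⟪b 2, x⟫ * ⟪b 2, y⟫ := by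
  have := b.sum_inner_mul_inner x y
  rw [Fin.sum_univ_three] at this
  rw [← this]
  simp only [real_inner_comm]

lemma cmap_b2 : cmap (b 0) (b 1) (b 2) = 0 := by
  apply ext_E2
  · simpa using bn b 0 2 (by decide)
  · simpa using bn b 1 2 (by decide)

/-- The highest point of a fiber lies on an upper facet. -/
lemma top_facet {N : Finset E3} {β : E3 → ℝ} (hP : IsCompact (poly N β)) {x : E3}
    (hx : x ∈ poly N β) :
    ∃ n ∈ N, 0 < ⟪b 2, n⟫ ∧ ∃ x' ∈ facet N β n, cmap (b 0) (b 1) x' = cmap (b 0) (b 1) x := by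
  set S := poly N β ∩ {y | cmap (b 0) (b 1) y = cmap (b 0) (b 1) x} with hS
  have hSc : IsCompact S := hP.inter_right (isClosed_eq (cmap_continuous _ _) continuous_const)
  have hSne : S.Nonempty := ⟨x, hx, rfl⟩
  obtain ⟨z, hzS, hzmax⟩ := hSc.exists_isMaxOn hSne
    (f := fun y => ⟪y, b 2⟫) (continuous_id.inner continuous_const).continuousOn
  by_contra hno
  have hall : ∀ n ∈ N, 0 < ⟪b 2, n⟫ → ⟪z, n⟫ < β n := by
    intro n hn hpos
    refine lt_of_le_of_ne (hzS.1 n hn) fun heq => hno ⟨n, hn, hpos, z, ⟨hzS.1, heq⟩, hzS.2⟩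
  have hev : ∀ᶠ δ in 𝓝[>] (0 : ℝ), ∀ n ∈ N, ⟪z + δ • b 2, n⟫ ≤ β n := by
    rw [Finset.eventually_all]
    intro n hn
    by_cases hpos : 0 < ⟪b 2, n⟫
    · have hc : Continuous fun δ : ℝ => ⟪z + δ • b 2, n⟫ := by fun_prop
      have h0 : Tendsto (fun δ : ℝ => ⟪z + δ • b 2, n⟫) (𝓝 0) (𝓝 ⟪z, n⟫) := by
        have := hc.tendsto 0
        simpa using this
      have := h0.eventually (gt_mem_nhds (hall n hn hpos))
      exact (this.filter_mono nhdsWithin_le_nhds).mono fun δ hδ => hδ.le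
    · filter_upwards [self_mem_nhdsWithin] with δ hδ
      have hδ' : 0 < δ := hδ
      rw [inner_add_left, real_inner_smul_left]
      have := hzS.1 n hn
      have h2 : δ * ⟪b 2, n⟫ ≤ 0 := mul_nonpos_of_nonneg_of_nonpos hδ'.le (not_lt.mp hpos)
      linarith
  obtain ⟨δ, hδ1, hδ2⟩ := (hev.and self_mem_nhdsWithin).exists
  have hδ' : 0 < δ := hδ2
  have hmem : z + δ • b 2 ∈ S := by
    refine ⟨hδ1, ?_⟩
    have := cmap_add_smul (b 0) (b 1) z (b 2) 1 δ
    rw [one_smul, cmap_b2, one_smul, smul_zero, add_zero] at this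
    exact this.trans hzS.2
  have hle := hzmax hmem
  simp only [mem_setOf_eq] at hle
  rw [inner_add_left, real_inner_smul_left, bs b 2] at hle
  linarith

lemma image_poly {N : Finset E3} {β : E3 → ℝ} (hP : IsCompact (poly N β)) :
    cmap (b 0) (b 1) '' poly N β
      = ⋃ n ∈ N.filter (fun n => 0 < ⟪b 2, n⟫), cmap (b 0) (b 1) '' facet N β n := by
  ext q
  constructor
  · rintro ⟨x, hx, rfl⟩
    obtain ⟨n, hn, hpos, x', hx', he⟩ := top_facet b hP hx
    simp only [mem_iUnion, exists_prop, Finset.mem_filter]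
    exact ⟨n, ⟨hn, hpos⟩, x', hx', he⟩
  · simp only [mem_iUnion, exists_prop, Finset.mem_filter]
    rintro ⟨n, -, x', hx', rfl⟩
    exact ⟨x', hx'.1, rfl⟩

/-- Two points of different upper facets with the same image coincide. -/
lemma same_point {N : Finset E3} {β : E3 → ℝ} {n n' x x' : E3} (hn : n ∈ N) (hn' : n' ∈ N)
    (h : 0 < ⟪b 2, n⟫) (h' : 0 < ⟪b 2, n'⟫) (hx : x ∈ facet N β n) (hx' : x' ∈ facet N β n')
    (he : cmap (b 0) (b 1) x = cmap (b 0) (b 1) x') : x = x' := by
  have h0 : ⟪b 0, x⟫ = ⟪b 0, x'⟫ := by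
    have := congrArg (fun q : E2 => q 0) he
    simpa using this
  have h1 : ⟪b 1, x⟫ = ⟪b 1, x'⟫ := by
    have := congrArg (fun q : E2 => q 1) he
    simpa using this
  set t := ⟪b 2, x'⟫ - ⟪b 2, x⟫ with ht
  have e : x' = x + t • b 2 := by
    rw [expand b x', expand b x, ht, ← h0, ← h1, sub_smul]
    abel
  have h2 : ⟪x', n⟫ ≤ β n := hx'.1 n hn
  have h3 : ⟪x, n'⟫ ≤ β n' := hx.1 n' hn'
  have h4 := hx.2
  have h5 := hx'.2
  rw [e, inner_add_left, real_inner_smul_left] at h2 h5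
  have h6 : t * ⟪b 2, n⟫ ≤ 0 := by linarith
  have h7 : 0 ≤ t * ⟪b 2, n'⟫ := by linarith
  have h8 : t ≤ 0 := by
    by_contra hc
    have : 0 < t * ⟪b 2, n⟫ := mul_pos (not_le.mp hc) h
    linarith
  have h9 : 0 ≤ t := by
    by_contra hc
    have : t * ⟪b 2, n'⟫ < 0 := mul_neg_of_neg_of_pos (not_le.mp hc) h'
    linarith
  have h10 : t = 0 := le_antisymm h8 h9
  rw [e, h10, zero_smul, add_zero]

lemma inner_two' (x y : E2) : ⟪x, y⟫ = x 0 * y 0 + x 1 * y 1 := by
  simp only [PiLp.inner_apply, Fin.sum_univ_two, RCLike.inner_apply, conj_trivial]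
  ring

lemma affine_line_null {w : E2} (hw : w ≠ 0) (γ : ℝ) : volume {q : E2 | ⟪w, q⟫ = γ} = 0 := by
  have hw2 : ⟪w, w⟫ ≠ 0 := inner_self_ne_zero.mpr hw
  set q₀ : E2 := (γ / ⟪w, w⟫) • w with hq₀
  have e : {q : E2 | ⟪w, q⟫ = γ} = (fun q => q + (-q₀)) ⁻¹' {z : E2 | inner ℝ w z = (0 : ℝ)} := by
    ext q
    simp only [mem_setOf_eq, mem_preimage, inner_add_right, inner_neg_right, hq₀, inner_smul_right]
    have : γ / ⟪w, w⟫ * ⟪w, w⟫ = γ := by field_simp
    rw [this]
    constructor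
    · intro h
      linarith
    · intro h
      linarith
  rw [e, measure_preimage_add_right]
  exact hyperplane_null hw

/-- Overlaps of the images of two upper facets are null. -/
lemma overlap_null {N : Finset E3} {β : E3 → ℝ} (hN : ∀ n ∈ N, ‖n‖ = 1) {n n' : E3} (hn : n ∈ N)
    (hn' : n' ∈ N) (hne : n ≠ n') (h : 0 < ⟪b 2, n⟫) (h' : 0 < ⟪b 2, n'⟫) :
    volume (cmap (b 0) (b 1) '' facet N β n ∩ cmap (b 0) (b 1) '' facet N β n') = 0 := by
  set a := ⟪b 2, n⟫ with ha
  set a' := ⟪b 2, n'⟫ with ha'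
  set w : E3 := a' • n - a • n' with hw
  have hw2 : ⟪b 2, w⟫ = 0 := by
    rw [hw, inner_sub_right, inner_smul_right, inner_smul_right, ← ha, ← ha']
    ring
  have hw0 : cmap (b 0) (b 1) w ≠ 0 := by
    intro hc
    have h0 : ⟪b 0, w⟫ = 0 := by
      have := congrArg (fun q : E2 => q 0) hc
      simpa using this
    have h1 : ⟪b 1, w⟫ = 0 := by
      have := congrArg (fun q : E2 => q 1) hc
      simpa using this
    have hw' : w = 0 := by
      rw [expand b w, h0, h1, hw2]
      simp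
    have e : a' • n = a • n' := sub_eq_zero.mp hw'
    have hnorm : a' = a := by
      have := congrArg norm e
      rw [norm_smul, norm_smul, hN n hn, hN n' hn', Real.norm_of_nonneg h'.le,
        Real.norm_of_nonneg h.le, mul_one, mul_one] at this
      exact this
    rw [hnorm] at e
    exact hne (smul_right_injective E3 h.ne' e)
  apply measure_mono_null _ (affine_line_null hw0 (a' * β n - a * β n'))
  rintro q ⟨⟨x, hx, rfl⟩, ⟨x', hx', he⟩⟩
  have hxx := same_point b hn hn' h h' hx hx' he.symm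
  subst hxx
  simp only [mem_setOf_eq]
  rw [inner_two']
  simp only [cmap_zero, cmap_one]
  have e1 := inner_expand b x w
  rw [hw2, mul_zero, add_zero] at e1
  have e2 : ⟪x, w⟫ = a' * β n - a * β n' := by
    rw [hw, inner_sub_right, inner_smul_right, inner_smul_right, hx.2, hx'.2]
  rw [e1] at e2
  rw [← e2]
  ring

/-- The area of the image of a planar set under a change of plane. -/
lemma volume_cmap_plane (b' : OrthonormalBasis (Fin 3) ℝ E3) {A : Set E3} {c : ℝ}
    (hA : ∀ x ∈ A, ⟪x, b' 2⟫ = c) :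
    volume (cmap (b 0) (b 1) '' A)
      = ENNReal.ofReal |⟪b' 2, b 2⟫| * volume (cmap (b' 0) (b' 1) '' A) := by
  set Mt : Matrix (Fin 2) (Fin 2) ℝ := !![⟪b 0, b' 0⟫, ⟪b 0, b' 1⟫; ⟪b 1, b' 0⟫, ⟪b 1, b' 1⟫] with hMt
  set M : E2 →ₗ[ℝ] E2 := Matrix.toEuclideanLin Mt with hM
  have hdet : |LinearMap.det M| = |⟪b' 2, b 2⟫| := by
    rw [hM, Matrix.toEuclideanLin_eq_toLin, LinearMap.det_toLin, hMt, Matrix.det_fin_two_of]
    have h1 := abs_det3_eq b (b' 0) (b' 1)
    have h2 := cauchy_binet (b' 0) (b' 1) (b 2) (b' 0) (b' 1) (b' 2)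
    rw [bs b' 0, bs b' 1, bn b' 0 1 (by decide), bn b' 1 0 (by decide), bn b' 2 0 (by decide),
      bn b' 2 1 (by decide)] at h2
    have h3 : det3 (b' 0) (b' 1) (b 2) * det3 (b' 0) (b' 1) (b' 2) = ⟪b' 2, b 2⟫ := by
      rw [h2]
      ring
    have h4 : |det3 (b' 0) (b' 1) (b 2)| = |⟪b' 2, b 2⟫| := by
      rw [← h3, abs_mul, abs_det3_basis, mul_one]
    rw [← h4, h1]
    congr 1
    ring
  set w : E2 := c • cmap (b 0) (b 1) (b' 2) with hw
  have hmap : ∀ x ∈ A, cmap (b 0) (b 1) x = M (cmap (b' 0) (b' 1) x) + w := by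
    intro x hx
    have hexp := expand b' x
    have hc : ⟪b' 2, x⟫ = c := by
      rw [real_inner_comm]
      exact hA x hx
    rw [hc] at hexp
    apply ext_E2
    · simp only [hw, hM, hMt, Matrix.toEuclideanLin_apply, cmap_zero, PiLp.add_apply, PiLp.smul_apply,
        smul_eq_mul]
      conv_lhs => rw [hexp]
      simp [inner_add_right, inner_smul_right, Matrix.mulVec, dotProduct, Fin.sum_univ_two]
      ring
    · simp only [hw, hM, hMt, Matrix.toEuclideanLin_apply, cmap_one, PiLp.add_apply, PiLp.smul_apply,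
        smul_eq_mul]
      conv_lhs => rw [hexp]
      simp [inner_add_right, inner_smul_right, Matrix.mulVec, dotProduct, Fin.sum_univ_two]
      ring
  have himg : cmap (b 0) (b 1) '' A = (fun q => q + w) '' (M '' (cmap (b' 0) (b' 1) '' A)) := by
    ext q
    constructor
    · rintro ⟨x, hx, rfl⟩
      exact ⟨M (cmap (b' 0) (b' 1) x), ⟨_, ⟨x, hx, rfl⟩, rfl⟩, (hmap x hx).symm⟩
    · rintro ⟨_, ⟨_, ⟨x, hx, rfl⟩, rfl⟩, rfl⟩
      exact ⟨x, hx, hmap x hx⟩
  rw [himg, Set.image_add_right, measure_preimage_add_right, Measure.addHaar_image_linearMap, hdet]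

end basis

/-- A chosen orthonormal basis whose last vector is `n`. -/
def basisOf {n : E3} (h : ‖n‖ = 1) : OrthonormalBasis (Fin 3) ℝ E3 := Classical.choose (exists_basis h)

lemma basisOf_two {n : E3} (h : ‖n‖ = 1) : basisOf h 2 = n := Classical.choose_spec (exists_basis h)

open Classical in
/-- The area of the facet with outer normal `n`. -/
def facetArea (N : Finset E3) (β : E3 → ℝ) (n : E3) : ℝ :=
  if h : ‖n‖ = 1 then (volume (cmap (basisOf h 0) (basisOf h 1) '' facet N β n)).toReal else 0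

lemma facetArea_nonneg (N : Finset E3) (β : E3 → ℝ) (n : E3) : 0 ≤ facetArea N β n := by
  unfold facetArea
  split_ifs
  · exact ENNReal.toReal_nonneg
  · exact le_rfl

lemma image_facet_real (b : OrthonormalBasis (Fin 3) ℝ E3) (N : Finset E3) (β : E3 → ℝ) {n : E3}
    (hn : ‖n‖ = 1) :
    (volume (cmap (b 0) (b 1) '' facet N β n)).toReal = |⟪n, b 2⟫| * facetArea N β n := by
  have hA : ∀ x ∈ facet N β n, ⟪x, basisOf hn 2⟫ = β n := by
    intro x hx
    rw [basisOf_two]
    exact hx.2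
  rw [volume_cmap_plane b (basisOf hn) hA, ENNReal.toReal_mul, ENNReal.toReal_ofReal (abs_nonneg _),
    basisOf_two]
  unfold facetArea
  rw [dif_pos hn]

/-- Half of Cauchy's formula: the area of the projection from above. -/
theorem projArea_upper (b : OrthonormalBasis (Fin 3) ℝ E3) {N : Finset E3} {β : E3 → ℝ}
    (hP : IsCompact (poly N β)) (hN : ∀ n ∈ N, ‖n‖ = 1) :
    projArea (poly N β) (b 2)
      = ∑ n ∈ N.filter (fun n => 0 < ⟪b 2, n⟫), ⟪b 2, n⟫ * facetArea N β n := by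
  rw [projArea_eq hP (b.norm_eq_one 0) (b.norm_eq_one 1) (b.norm_eq_one 2)
    (bn b 0 1 (by decide)) (bn b 0 2 (by decide)) (bn b 1 2 (by decide)), image_poly b hP]
  have hcomp : ∀ n, IsCompact (cmap (b 0) (b 1) '' facet N β n) := fun n =>
    cmap_image_compact (facet_compact hP n) _ _
  rw [measure_biUnion_finset₀ ?_ fun n _ => (hcomp n).measurableSet.nullMeasurableSet]
  · rw [ENNReal.toReal_sum fun n _ => (hcomp n).measure_lt_top.ne]
    apply Finset.sum_congr rfl
    intro n hn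
    rw [Finset.mem_filter] at hn
    rw [image_facet_real b N β (hN n hn.1), real_inner_comm, abs_of_pos hn.2]
  · intro n hn n' hn' hne
    rw [Finset.mem_coe, Finset.mem_filter] at hn hn'
    exact overlap_null b hN hn.1 hn'.1 hne hn.2 hn'.2

/-- **Cauchy's projection formula for polytopes.** -/
theorem projArea_poly {N : Finset E3} {β : E3 → ℝ} (hP : IsCompact (poly N β))
    (hN : ∀ n ∈ N, ‖n‖ = 1) {u : E3} (hu : ‖u‖ = 1) :
    projArea (poly N β) u = ∑ n ∈ N, |⟪(2⁻¹ * facetArea N β n) • n, u⟫| := by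
  obtain ⟨b, rfl⟩ := exists_basis hu
  have hu' : ‖-(b 2)‖ = 1 := by rw [norm_neg]; exact b.norm_eq_one 2
  obtain ⟨b₂, hb₂⟩ := exists_basis hu'
  have h1 := projArea_upper b hP hN
  have h2 := projArea_upper b₂ hP hN
  have e : projArea (poly N β) (b₂ 2) = projArea (poly N β) (b 2) := by
    rw [hb₂, projArea_eq hP (b.norm_eq_one 0) (b.norm_eq_one 1) (b.norm_eq_one 2)
      (bn b 0 1 (by decide)) (bn b 0 2 (by decide)) (bn b 1 2 (by decide)),
      projArea_eq hP (b.norm_eq_one 0) (b.norm_eq_one 1) hu' (bn b 0 1 (by decide))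
      (by rw [inner_neg_right, bn b 0 2 (by decide), neg_zero])
      (by rw [inner_neg_right, bn b 1 2 (by decide), neg_zero])]
  rw [e, hb₂] at h2
  rw [Finset.sum_filter] at h1 h2
  have h3 : 2 * projArea (poly N β) (b 2)
      = ∑ n ∈ N, |⟪b 2, n⟫| * facetArea N β n := by
    rw [two_mul]
    nth_rewrite 1 [h1]
    rw [h2, ← Finset.sum_add_distrib]
    apply Finset.sum_congr rfl
    intro n _
    have hf := facetArea_nonneg N β n
    simp only [inner_neg_left]
    rcases lt_trichotomy ⟪b 2, n⟫ 0 with h | h | h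
    · rw [if_neg (not_lt.mpr h.le), if_pos (by linarith), abs_of_neg h]
      ring
    · simp [h]
    · rw [if_pos h, if_neg (by linarith), abs_of_pos h]
      ring
  have h4 : ∑ n ∈ N, |⟪(2⁻¹ * facetArea N β n) • n, b 2⟫|
      = 2⁻¹ * ∑ n ∈ N, |⟪b 2, n⟫| * facetArea N β n := by
    rw [Finset.mul_sum]
    apply Finset.sum_congr rfl
    intro n _
    have hf := facetArea_nonneg N β n
    rw [real_inner_smul_left, abs_mul, abs_of_nonneg (by positivity), real_inner_comm]
    ring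
  rw [h4, ← h3]
  ring

end

end Vale.Agent.Lib.P237.Petty.AllK
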