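import Vale.Agent.Lib.P237.PettyDefs

open MeasureTheory Set
open scoped RealInnerProductSpace

namespace Vale.Agent.Lib.P237.Petty.AllK

noncomputable section

/-- The projection body of `K`: the set of all `x` with `⟪x, u⟫ ≤ projArea K u` for all unit `u`,
where `projArea K u` is the area of the orthogonal projection of `K` onto `u^⊥`. -/
def projBodyOf (K : Set E3) : Set E3 := {x | ∀ u : E3, ‖u‖ = 1 → ⟪x, u⟫ ≤ projArea K u}

end

end Vale.Agent.Lib.P237.Petty.AllK
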