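import Vale.Agent.Lib.P237.AllK.Approx
import Vale.Agent.Lib.P237.AllK.Defs

open MeasureTheory Set Module Filter Topology
open scoped RealInnerProductSpace Pointwise ENNReal

namespace Vale.Agent.Lib.P237.Petty.AllK

open Vale.Agent.Lib.P237 Vale.Agent.Lib.P227

noncomputable section

set_option linter.unusedSectionVars false
set_option linter.deprecated false

lemma projBodyOf_closed (K : Set E3) : IsClosed (projBodyOf K) := by
  have : projBodyOf K = ⋂ u : E3, ⋂ _ : ‖u‖ = 1, {x | ⟪x, u⟫ ≤ projArea K u} := by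
    ext x
    simp [projBodyOf]
  rw [this]
  exact isClosed_iInter fun u => isClosed_iInter fun _ =>
    isClosed_le (continuous_id.inner continuous_const) continuous_const

lemma projBodyOf_convex (K : Set E3) : Convex ℝ (projBodyOf K) := by
  intro x hx y hy a c ha hc hac u hu
  rw [inner_add_left, real_inner_smul_left, real_inner_smul_left]
  have h1 := hx u hu
  have h2 := hy u hu
  have h3 : a * ⟪x, u⟫ ≤ a * projArea K u := by gcongr
  have h4 : c * ⟪y, u⟫ ≤ c * projArea K u := by gcongr
  calc _ ≤ a * projArea K u + c * projArea K u := by linarith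
    _ = _ := by rw [← add_mul, hac, one_mul]

lemma zero_mem_projBodyOf (K : Set E3) : (0 : E3) ∈ projBodyOf K := by
  intro u _
  rw [inner_zero_left]
  exact projArea_nonneg _ _

section gens

variable {ι : Type*} [Fintype ι] {K : Set E3} {g : ι → E3}

lemma inner_le_of_mem_zon {x : E3} (hx : x ∈ zonotope g) (u : E3) : ⟪x, u⟫ ≤ ∑ i, |⟪g i, u⟫| := by
  have := le_supp (zon_compact g) hx u
  rwa [zon_supp] at this

lemma subset_zon (h1 : ∀ u : E3, ‖u‖ = 1 → projArea K u ≤ ∑ i, |⟪g i, u⟫|) :
    projBodyOf K ⊆ zonotope g := by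
  intro x hx
  by_contra hc
  obtain ⟨n, hn, hlt⟩ := exists_sep (zon_compact g) (zon_convex g) ⟨0, zon_zero g⟩ hc
  rw [zon_supp] at hlt
  have h2 := hx n hn
  have h3 := h1 n hn
  linarith

lemma zon_subset {t : ℝ} (ht : 0 < t) (h2 : ∀ u : E3, ‖u‖ = 1 → ∑ i, |⟪g i, u⟫| ≤ t * projArea K u) :
    zonotope g ⊆ t • projBodyOf K := by
  intro x hx
  refine (mem_smul_set_iff_inv_smul_mem₀ ht.ne' _ _).mpr ?_
  intro u hu
  rw [real_inner_smul_left, inv_mul_le_iff₀ ht]
  exact (inner_le_of_mem_zon hx u).trans (h2 u hu)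

lemma HH_le_sum (h1 : ∀ u : E3, ‖u‖ = 1 → projArea K u ≤ ∑ i, |⟪g i, u⟫|) (v : E3) :
    HH K v ≤ ∑ i, |⟪g i, v⟫| := by
  by_cases hv : v = 0
  · subst hv
    rw [HH_zero]
    exact Finset.sum_nonneg fun _ _ => abs_nonneg _
  have hu := h1 _ (unit_of_ne hv)
  have hnv : 0 < ‖v‖ := norm_pos_iff.mpr hv
  unfold HH
  calc ‖v‖ * projArea K (‖v‖⁻¹ • v) ≤ ‖v‖ * ∑ i, |⟪g i, ‖v‖⁻¹ • v⟫| := by gcongr
    _ = ∑ i, |⟪g i, v⟫| := by
      rw [Finset.mul_sum]
      apply Finset.sum_congr rfl
      intro i _
      rw [inner_smul_right, abs_mul, abs_of_pos (by positivity : 0 < ‖v‖⁻¹), ← mul_assoc,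
        mul_inv_cancel₀ hnv.ne', one_mul]

lemma sum_proj (g : ι → E3) : ∑ p : ι × ι, ∑ i, |⟪g i, projGen g p⟫| = 2 * D3 g := by
  unfold D3
  rw [Fintype.sum_prod_type, Finset.mul_sum]
  apply Finset.sum_congr rfl
  intro i _
  rw [Finset.mul_sum]
  apply Finset.sum_congr rfl
  intro k _
  rw [Finset.mul_sum]
  apply Finset.sum_congr rfl
  intro l _
  rw [real_inner_comm]
  unfold projGen
  rw [real_inner_smul_left, inner_cross, abs_mul]
  norm_num

lemma key_cube (hK : IsCompact K) (hKc : Convex ℝ K) {ρ : ℝ} (hρ : 0 < ρ)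
    (hB : Metric.closedBall (0 : E3) ρ ⊆ K)
    (h1 : ∀ u : E3, ‖u‖ = 1 → projArea K u ≤ ∑ i, |⟪g i, u⟫|) :
    (volume K).toReal ^ 2 * (volume (zonotope (projGen g))).toReal
      ≤ (volume (zonotope g)).toReal ^ 3 := by
  classical
  have hm := mink hK hKc hρ hB (projGen g)
  have h2 : ∑ p, HH K (projGen g p) ≤ 2 * D3 g := by
    rw [← sum_proj]
    exact Finset.sum_le_sum fun p _ => HH_le_sum h1 _
  have h3 : 0 ≤ ∑ p, HH K (projGen g p) := Finset.sum_nonneg fun _ _ => HH_nonneg _ _
  refine hm.trans ?_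
  rw [toReal_volume_zonotope g]
  apply pow_le_pow_left₀ (by positivity)
  linarith

end gens

/-- The projected area of a body containing a ball. -/
lemma projArea_ge {K : Set E3} (hK : IsCompact K) {ρ : ℝ}
    (hB : Metric.closedBall (0 : E3) ρ ⊆ K) {u : E3} (hu : ‖u‖ = 1) :
    (volume (Metric.closedBall (0 : E2) ρ)).toReal ≤ projArea K u := by
  obtain ⟨b, rfl⟩ := exists_basis hu
  rw [projArea_eq hK (b.norm_eq_one 0) (b.norm_eq_one 1) (b.norm_eq_one 2)
    (bn b 0 1 (by decide)) (bn b 0 2 (by decide)) (bn b 1 2 (by decide))]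
  apply ENNReal.toReal_mono (cmap_image_compact hK _ _).measure_lt_top.ne
  apply measure_mono
  intro q hq
  refine ⟨pt b q 0, hB ?_, ?_⟩
  · rw [mem_closedBall_zero_iff] at hq ⊢
    have h1 := norm_sq_pt b q 0
    have h0 : 0 ≤ ρ := (norm_nonneg q).trans hq
    have h2 : ‖pt b q 0‖ ^ 2 ≤ ρ ^ 2 := by
      rw [h1]
      have := pow_le_pow_left₀ (norm_nonneg q) hq 2
      linarith
    exact (pow_le_pow_iff_left₀ (norm_nonneg _) h0 (by norm_num)).mp h2
  · apply ext_E2
    · rw [cmap_zero, inner_pt_zero]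
    · rw [cmap_one, inner_pt_one]

lemma ball_subset_projBodyOf {K : Set E3} (hK : IsCompact K) {ρ : ℝ}
    (hB : Metric.closedBall (0 : E3) ρ ⊆ K) :
    Metric.closedBall (0 : E3) (volume (Metric.closedBall (0 : E2) ρ)).toReal ⊆ projBodyOf K := by
  intro x hx u hu
  rw [mem_closedBall_zero_iff] at hx
  calc ⟪x, u⟫ ≤ ‖x‖ * ‖u‖ := real_inner_le_norm _ _
    _ = ‖x‖ := by rw [hu, mul_one]
    _ ≤ _ := hx
    _ ≤ _ := projArea_ge hK hB hu

/-- Existence of the projection body and the volume bound, for a body containing a ball around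
the origin. -/
theorem main_ball {c : ℝ}
    (hZ : ∀ {ι : Type} [Fintype ι] (a : ι → E3),
      c * (volume (zonotope a)).toReal ^ 2 ≤ (volume (zonotope (projGen a))).toReal)
    {K : Set E3} (hK : IsCompact K) (hKc : Convex ℝ K) {ρ : ℝ} (hρ : 0 < ρ)
    (hB : Metric.closedBall (0 : E3) ρ ⊆ K) :
    IsProjBody K (projBodyOf K) ∧ c * (volume K).toReal ^ 2 ≤ (volume (projBodyOf K)).toReal := by
  -- compactness
  have hWc : IsCompact (projBodyOf K) := by
    obtain ⟨ι, _, g, hg⟩ := exists_gens hK hKc hρ hB one_pos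
    exact (zon_compact g).of_isClosed_subset (projBodyOf_closed K)
      (subset_zon fun u hu => (hg u hu).1)
  have hWne : (projBodyOf K).Nonempty := ⟨0, zero_mem_projBodyOf K⟩
  set δ := (volume (Metric.closedBall (0 : E2) ρ)).toReal with hδ
  have hδ0 : 0 < δ := by
    apply ENNReal.toReal_pos _ (isCompact_closedBall _ _).measure_lt_top.ne
    exact (Metric.measure_closedBall_pos _ _ hρ).ne'
  have hWpos : 0 < (volume (projBodyOf K)).toReal :=
    volume_pos_of_ball hδ0 (ball_subset_projBodyOf hK hB) hWc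
  refine ⟨⟨hWc, projBodyOf_convex K, hWne, fun u hu => ?_⟩, ?_⟩
  · apply le_antisymm
    · exact supp_le hWne fun x hx => hx u hu
    · -- lower bound through zonotopes
      have key : ∀ ε : ℝ, 0 < ε → projArea K u ≤ (1 + ε) ^ 2 * supp (projBodyOf K) u := by
        intro ε hε
        obtain ⟨ι, _, g, hg⟩ := exists_gens hK hKc hρ hB hε
        have ht : 0 < (1 + ε) ^ 2 := by positivity
        have hsub := zon_subset (t := (1 + ε) ^ 2) ht (g := g) (K := K) fun v hv => (hg v hv).2
        have hsup := zon_supp g u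
        have hmem : supp (zonotope g) u ∈ (fun x : E3 => ⟪x, u⟫) '' zonotope g :=
          ((zon_compact g).image (continuous_id.inner continuous_const)).sSup_mem
            (Set.Nonempty.image _ ⟨0, zon_zero g⟩)
        obtain ⟨z, hz, hze⟩ := hmem
        obtain ⟨w, hw, rfl⟩ := hsub hz
        have h1 : ⟪w, u⟫ ≤ supp (projBodyOf K) u := le_supp hWc hw u
        simp only at hze
        rw [real_inner_smul_left] at hze
        calc projArea K u ≤ ∑ i, |⟪g i, u⟫| := (hg u hu).1
          _ = supp (zonotope g) u := hsup.symm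
          _ = (1 + ε) ^ 2 * ⟪w, u⟫ := hze.symm
          _ ≤ _ := by gcongr
      have hlim : Tendsto (fun ε : ℝ => (1 + ε) ^ 2 * supp (projBodyOf K) u) (𝓝[>] 0)
          (𝓝 ((1 + 0) ^ 2 * supp (projBodyOf K) u)) := by
        have hc : Continuous fun ε : ℝ => (1 + ε) ^ 2 * supp (projBodyOf K) u := by fun_prop
        exact (hc.tendsto 0).mono_left nhdsWithin_le_nhds
      have := ge_of_tendsto hlim (by
        filter_upwards [self_mem_nhdsWithin] with ε hε
        exact key ε hε)
      simpa using this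
  · have key : ∀ ε : ℝ, 0 < ε →
        c * (volume K).toReal ^ 2 ≤ ((1 + ε) ^ 2) ^ 3 * (volume (projBodyOf K)).toReal := by
      intro ε hε
      obtain ⟨ι, _, g, hg⟩ := exists_gens hK hKc hρ hB hε
      have ht : 0 < (1 + ε) ^ 2 := by positivity
      have hsub := zon_subset (t := (1 + ε) ^ 2) ht (g := g) (K := K) fun v hv => (hg v hv).2
      have hsub2 := subset_zon (g := g) (K := K) fun v hv => (hg v hv).1
      have hvZ : (volume (zonotope g)).toReal ≤ ((1 + ε) ^ 2) ^ 3 * (volume (projBodyOf K)).toReal := by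
        rw [← vol_smul3_real ht.le]
        exact ENNReal.toReal_mono (hWc.smul _).measure_lt_top.ne (measure_mono hsub)
      have hZpos : 0 < (volume (zonotope g)).toReal :=
        lt_of_lt_of_le hWpos (ENNReal.toReal_mono (zon_compact g).measure_lt_top.ne
          (measure_mono hsub2))
      have h1 := key_cube hK hKc hρ hB (g := g) fun v hv => (hg v hv).1
      have h2 := hZ g
      have h3 : 0 ≤ (volume K).toReal ^ 2 := by positivity
      have h4 : (volume K).toReal ^ 2 * (c * (volume (zonotope g)).toReal ^ 2)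
          ≤ (volume (zonotope g)).toReal ^ 3 :=
        (mul_le_mul_of_nonneg_left h2 h3).trans h1
      have h5 : (volume (zonotope g)).toReal ^ 2 * (c * (volume K).toReal ^ 2)
          ≤ (volume (zonotope g)).toReal ^ 2 * (volume (zonotope g)).toReal := by
        calc _ = (volume K).toReal ^ 2 * (c * (volume (zonotope g)).toReal ^ 2) := by ring
          _ ≤ _ := h4
          _ = _ := by ring
      have h6 := le_of_mul_le_mul_left h5 (by positivity)
      exact h6.trans hvZ
    have hlim : Tendsto (fun ε : ℝ => ((1 + ε) ^ 2) ^ 3 * (volume (projBodyOf K)).toReal) (𝓝[>] 0)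
        (𝓝 (((1 + 0) ^ 2) ^ 3 * (volume (projBodyOf K)).toReal)) := by
      have hc : Continuous fun ε : ℝ => ((1 + ε) ^ 2) ^ 3 * (volume (projBodyOf K)).toReal := by
        fun_prop
      exact (hc.tendsto 0).mono_left nhdsWithin_le_nhds
    have := ge_of_tendsto hlim (by
      filter_upwards [self_mem_nhdsWithin] with ε hε
      exact key ε hε)
    simpa using this

/-- Translating a set does not change its projected areas. -/
lemma projArea_translate {K : Set E3} (hK : IsCompact K) (x₀ : E3) {u : E3} (hu : ‖u‖ = 1) :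
    projArea ((fun x => x + x₀) '' K) u = projArea K u := by
  obtain ⟨b, rfl⟩ := exists_basis hu
  have hc : IsCompact ((fun x => x + x₀) '' K) := hK.image (by fun_prop)
  rw [projArea_eq hK (b.norm_eq_one 0) (b.norm_eq_one 1) (b.norm_eq_one 2)
    (bn b 0 1 (by decide)) (bn b 0 2 (by decide)) (bn b 1 2 (by decide)),
    projArea_eq hc (b.norm_eq_one 0) (b.norm_eq_one 1) (b.norm_eq_one 2)
    (bn b 0 1 (by decide)) (bn b 0 2 (by decide)) (bn b 1 2 (by decide))]
  have e : cmap (b 0) (b 1) '' ((fun x => x + x₀) '' K)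
      = (fun q => q + cmap (b 0) (b 1) x₀) '' (cmap (b 0) (b 1) '' K) := by
    rw [image_image, image_image]
    apply image_congr
    intro x _
    have := cmap_add_smul (b 0) (b 1) x x₀ 1 1
    simpa using this
  rw [e, Set.image_add_right, measure_preimage_add_right]

lemma projBodyOf_translate {K : Set E3} (hK : IsCompact K) (x₀ : E3) :
    projBodyOf ((fun x => x + x₀) '' K) = projBodyOf K := by
  ext x
  constructor
  · intro hx u hu
    have := hx u hu
    rwa [projArea_translate hK x₀ hu] at this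
  · intro hx u hu
    rw [projArea_translate hK x₀ hu]
    exact hx u hu

/-- **From zonotopes to all convex bodies.** If the bound `c |Z|² ≤ |Π Z|` holds for all zonotopes
in three space, then for every convex body `K` in three space the set `projBodyOf K` is the
projection body of `K` and `c |K|² ≤ |Π K|`. -/
theorem all_of_zonotope {c : ℝ}
    (hZ : ∀ {ι : Type} [Fintype ι] (a : ι → E3),
      c * (volume (zonotope a)).toReal ^ 2 ≤ (volume (zonotope (projGen a))).toReal)
    {K : Set E3} (hK : IsCompact K) (hKc : Convex ℝ K) (hi : (interior K).Nonempty) :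
    IsProjBody K (projBodyOf K) ∧ c * (volume K).toReal ^ 2 ≤ (volume (projBodyOf K)).toReal := by
  obtain ⟨x₀, hx₀⟩ := hi
  obtain ⟨ρ, hρ, hball⟩ := Metric.nhds_basis_closedBall.mem_iff.mp (mem_interior_iff_mem_nhds.mp hx₀)
  set K' := (fun x => x + (-x₀)) '' K with hK'
  have hKc' : IsCompact K' := hK.image (by fun_prop)
  have hconv' : Convex ℝ K' := by
    rintro _ ⟨x, hx, rfl⟩ _ ⟨y, hy, rfl⟩ a e ha he hae
    refine ⟨a • x + e • y, hKc hx hy ha he hae, ?_⟩
    have : a • (x + -x₀) + e • (y + -x₀) = a • x + e • y + (a + e) • (-x₀) := by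
      rw [smul_add, smul_add, add_smul]
      abel
    simp only at this ⊢
    rw [this, hae, one_smul]
  have hB' : Metric.closedBall (0 : E3) ρ ⊆ K' := by
    intro y hy
    refine ⟨y + x₀, hball ?_, by simp⟩
    rw [mem_closedBall_iff_norm, add_sub_cancel_right]
    simpa using hy
  obtain ⟨h1, h2⟩ := main_ball hZ hKc' hconv' hρ hB'
  have hW : projBodyOf K' = projBodyOf K := projBodyOf_translate hK _
  have hV : volume K' = volume K := by
    rw [hK', Set.image_add_right, measure_preimage_add_right]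
  rw [hW] at h1 h2
  rw [hV] at h2
  refine ⟨⟨h1.compact, h1.convex, h1.nonempty, fun u hu => ?_⟩, h2⟩
  rw [h1.support u hu, hK', projArea_translate hK _ hu]

/-- Any projection body of `K` is the set `projBodyOf K`. -/
lemma isProjBody_eq {K L : Set E3} (hL : IsProjBody K L) : L = projBodyOf K := by
  ext x
  constructor
  · intro hx u hu
    rw [← hL.support u hu]
    exact le_supp hL.compact hx u
  · intro hx
    by_contra hc
    obtain ⟨n, hn, hlt⟩ := exists_sep hL.compact hL.convex hL.nonempty hc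
    rw [hL.support n hn] at hlt
    have := hx n hn
    linarith

end

end Vale.Agent.Lib.P237.Petty.AllK
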