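import Vale.Agent.Lib.P237.AllK.Sweep

open MeasureTheory Set Module Filter Topology
open scoped RealInnerProductSpace Pointwise ENNReal

namespace Vale.Agent.Lib.P237.Petty.AllK

open Vale.Agent.Lib.P237 Vale.Agent.Lib.P227

noncomputable section

set_option linter.unusedSectionVars false

variable {ι : Type*} [Fintype ι]

lemma volume_pos_of_ball {K : Set E3} {ρ : ℝ} (hρ : 0 < ρ)
    (hB : Metric.closedBall (0 : E3) ρ ⊆ K) (hK : IsCompact K) : 0 < (volume K).toReal := by
  apply ENNReal.toReal_pos _ hK.measure_lt_top.ne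
  have h1 : 0 < volume (Metric.closedBall (0 : E3) ρ) := Metric.measure_closedBall_pos _ _ hρ
  exact (lt_of_lt_of_le h1 (measure_mono hB)).ne'

lemma exists_cbrt {v : ℝ} (hv : 0 ≤ v) : ∃ α : ℝ, 0 ≤ α ∧ α ^ 3 = v := by
  refine ⟨v ^ (1 / 3 : ℝ), Real.rpow_nonneg hv _, ?_⟩
  rw [← Real.rpow_natCast, ← Real.rpow_mul hv]
  norm_num

lemma zon_sub_zs (K : Set E3) (G : ι → E3) {s : ℝ} {x y : E3} (hx : x ∈ K) (hy : y ∈ zonotope G) :
    x + s • y ∈ zs K (fun i => s • G i) Finset.univ := by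
  obtain ⟨r, hr, rfl⟩ := hy
  refine ⟨x, hx, r, hr, ?_⟩
  rw [Finset.smul_sum]
  congr 1
  apply Finset.sum_congr rfl
  intro i _
  rw [smul_comm]

/-- **Minkowski's first inequality** for a convex body and a zonotope. -/
theorem mink {K : Set E3} (hK : IsCompact K) (hKc : Convex ℝ K) {ρ : ℝ} (hρ : 0 < ρ)
    (hB : Metric.closedBall (0 : E3) ρ ⊆ K) (G : ι → E3) :
    (volume K).toReal ^ 2 * (volume (zonotope G)).toReal ≤ (2 / 3 * ∑ i, HH K (G i)) ^ 3 := by
  have hS0 : 0 ≤ ∑ i, HH K (G i) := Finset.sum_nonneg fun i _ => HH_nonneg _ _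
  set SS := ∑ i, HH K (G i) with hSS
  have hv := volume_pos_of_ball hρ hB hK
  rcases (ENNReal.toReal_nonneg (a := volume (zonotope G))).eq_or_lt with hz | hz
  · rw [← hz, mul_zero]
    positivity
  obtain ⟨α, hα0, hα⟩ := exists_cbrt hv.le
  obtain ⟨γ, hγ0, hγ⟩ := exists_cbrt hz.le
  have hαp : 0 < α := by
    rcases hα0.eq_or_lt with h | h
    · rw [← h] at hα
      norm_num at hα
      linarith
    · exact h
  have hγp : 0 < γ := by
    rcases hγ0.eq_or_lt with h | h
    · rw [← h] at hγ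
      norm_num at hγ
      linarith
    · exact h
  set D := (∑ i, ‖G i‖) / ρ with hD
  have hD0 : 0 ≤ D := div_nonneg (Finset.sum_nonneg fun i _ => norm_nonneg _) hρ.le
  have key : ∀ s : ℝ, 0 < s → 3 * α ^ 2 * γ ≤ 2 * (1 + s * D) ^ 2 * SS := by
    intro s hs
    set l := s / (1 + s) with hl
    have hl0 : 0 < l := by positivity
    have hl1 : l < 1 := by
      rw [hl, div_lt_one (by positivity)]
      linarith
    have hml : 1 - l = 1 / (1 + s) := by
      rw [hl]
      field_simp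
      ring
    have hml0 : 0 < 1 - l := by linarith
    set Gs : ι → E3 := fun i => s • G i with hGs
    have hZs := zs_compact hK Gs Finset.univ
    have hbm := bm_cube (N := (1 - l) • zs K Gs Finset.univ) hK (zon_compact G) (hZs.smul _) hαp hγp
      hα.symm hγ.symm hl0 hl1 (by
        intro x hx y hy
        refine ⟨x + s • y, zon_sub_zs K G hx hy, ?_⟩
        simp only [smul_add, smul_smul]
        congr 2
        rw [hml, hl]
        field_simp)
    rw [vol_smul3_real hml0.le] at hbm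
    have h1 : (1 - l) * α + l * γ = (1 - l) * (α + s * γ) := by
      rw [hml, hl]
      field_simp
    rw [h1, mul_pow] at hbm
    have h2 : (α + s * γ) ^ 3 ≤ (volume (zs K Gs Finset.univ)).toReal :=
      le_of_mul_le_mul_left hbm (by positivity)
    have h3 := volume_zs_le hK hKc hρ hB Gs Finset.univ
    have e1 : ∑ i, ‖Gs i‖ = s * ∑ i, ‖G i‖ := by
      rw [Finset.mul_sum]
      apply Finset.sum_congr rfl
      intro i _
      rw [hGs]
      simp only
      rw [norm_smul, Real.norm_of_nonneg hs.le]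
    have e2 : ∑ i, HH K (Gs i) = s * SS := by
      rw [hSS, Finset.mul_sum]
      apply Finset.sum_congr rfl
      intro i _
      exact HH_smul K (G i) hs
    rw [e1, e2] at h3
    have e3 : (s * ∑ i, ‖G i‖) / ρ = s * D := by
      rw [hD]
      ring
    have h4 : (α + s * γ) ^ 3 ≤ α ^ 3 + 2 * (1 + s * D) ^ 2 * (s * SS) := by
      rw [hα]
      rw [e3] at h3
      exact h2.trans h3
    have h5 : s * (3 * α ^ 2 * γ) ≤ s * (2 * (1 + s * D) ^ 2 * SS) := by
      have : 0 ≤ 3 * α * (s * γ) ^ 2 + (s * γ) ^ 3 := by positivity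
      nlinarith
    exact le_of_mul_le_mul_left h5 hs
  have hlim : Tendsto (fun s : ℝ => 2 * (1 + s * D) ^ 2 * SS) (𝓝[>] 0)
      (𝓝 (2 * (1 + 0 * D) ^ 2 * SS)) := by
    have hc : Continuous fun s : ℝ => 2 * (1 + s * D) ^ 2 * SS := by fun_prop
    exact (hc.tendsto 0).mono_left nhdsWithin_le_nhds
  have h6 : 3 * α ^ 2 * γ ≤ 2 * (1 + 0 * D) ^ 2 * SS := ge_of_tendsto hlim (by
    filter_upwards [self_mem_nhdsWithin] with s hs
    exact key s hs)
  have h7 : α ^ 2 * γ ≤ 2 / 3 * SS := by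
    norm_num at h6
    linarith
  have h8 : (α ^ 2 * γ) ^ 3 ≤ (2 / 3 * SS) ^ 3 := pow_le_pow_left₀ (by positivity) h7 3
  calc (volume K).toReal ^ 2 * (volume (zonotope G)).toReal = (α ^ 2 * γ) ^ 3 := by
        rw [← hα, ← hγ]
        ring
    _ ≤ _ := h8

end

end Vale.Agent.Lib.P237.Petty.AllK
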