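import Vale.Agent.Lib.P237.PettyBMZ

open MeasureTheory Set Module Filter Topology
open scoped RealInnerProductSpace Pointwise ENNReal

namespace Vale.Agent.Lib.P237.Petty.AllK

open Vale.Agent.Lib.P237 Vale.Agent.Lib.P227

noncomputable section

set_option linter.unusedSectionVars false
set_option linter.unnecessarySimpa false
set_option linter.unreachableTactic false
set_option linter.unusedTactic false

/-- Coordinates of a point in an orthonormal basis, as a point of the plane times the line. -/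
def coord (b : OrthonormalBasis (Fin 3) ℝ E3) (x : E3) : E2 × ℝ :=
  (cmap (b 0) (b 1) x, ⟪b 2, x⟫)

lemma coord_continuous (b : OrthonormalBasis (Fin 3) ℝ E3) : Continuous (coord b) := by
  unfold coord
  exact (cmap_continuous _ _).prodMk (continuous_const.inner continuous_id)

lemma mp_coord (b : OrthonormalBasis (Fin 3) ℝ E3) :
    MeasurePreserving (coord b) volume volume := by
  have h := mp_tau.comp b.measurePreserving_repr
  convert h using 1
  funext x
  simp only [Function.comp, coord, pl]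
  congr 1
  · apply ext_E2 <;> simp [OrthonormalBasis.repr_apply_apply]
  · simp [OrthonormalBasis.repr_apply_apply]

lemma coord_injective (b : OrthonormalBasis (Fin 3) ℝ E3) : Function.Injective (coord b) := by
  intro x y h
  have h1 : cmap (b 0) (b 1) x = cmap (b 0) (b 1) y := congrArg Prod.fst h
  have h2 : ⟪b 2, x⟫ = ⟪b 2, y⟫ := congrArg Prod.snd h
  have h0 : ⟪b 0, x⟫ = ⟪b 0, y⟫ := by
    have := congrArg (fun q : E2 => q 0) h1
    simpa using this
  have h3 : ⟪b 1, x⟫ = ⟪b 1, y⟫ := by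
    have := congrArg (fun q : E2 => q 1) h1
    simpa using this
  apply b.repr.injective
  ext i
  simp only [OrthonormalBasis.repr_apply_apply]
  fin_cases i
  · exact h0
  · exact h3
  · exact h2

lemma coord_comb (b : OrthonormalBasis (Fin 3) ℝ E3) (x y : E3) (a c : ℝ) :
    coord b (a • x + c • y) = a • coord b x + c • coord b y := by
  simp only [coord, cmap_add_smul, inner_add_right, inner_smul_right, Prod.smul_mk, Prod.mk_add_mk,
    smul_eq_mul]

/-- The sum of a set with the segment from `-g` to `g`. -/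
def sweep (C : Set E3) (g : E3) : Set E3 := {x | ∃ y ∈ C, ∃ r ∈ Icc (-1 : ℝ) 1, x = y + r • g}

theorem volume_sweep {C : Set E3} (hc : IsCompact C) (hv : Convex ℝ C) {u : E3} (hu : ‖u‖ = 1)
    {η : ℝ} (hη : 0 ≤ η) :
    (volume (sweep C (η • u))).toReal = (volume C).toReal + 2 * η * projArea C u := by
  obtain ⟨b, rfl⟩ := exists_basis hu
  have hn : ∀ i j, i ≠ j → ⟪b i, b j⟫ = 0 := fun i j hij => b.orthonormal.2 hij
  have hs : ⟪b 2, b 2⟫ = 1 := by
    rw [real_inner_self_eq_norm_sq, b.norm_eq_one]; norm_num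
  set C' := coord b '' C with hC'
  have hCc : IsCompact C' := hc.image (coord_continuous b)
  have hCv : Convex ℝ C' := by
    rintro _ ⟨x, hx, rfl⟩ _ ⟨y, hy, rfl⟩ a c ha hc hac
    exact ⟨a • x + c • y, hv hx hy ha hc hac, coord_comb b x y a c⟩
  have hpre : coord b ⁻¹' (thickV C' η) = sweep C (η • b 2) := by
    ext x
    constructor
    · rintro ⟨_, ⟨y, hy, rfl⟩, r, hr, he⟩
      refine ⟨y, hy, r, hr, ?_⟩
      apply coord_injective b
      rw [he]
      have e : y + r • η • b 2 = (1 : ℝ) • y + (r * η) • b 2 := by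
        rw [one_smul, mul_smul]
      rw [e, coord_comb, one_smul]
      simp only [coord, Prod.smul_mk, Prod.mk_add_mk]
      congr 1
      · have : cmap (b 0) (b 1) (b 2) = 0 := by
          apply ext_E2
          · simpa using hn 0 2 (by decide)
          · simpa using hn 1 2 (by decide)
        rw [this]
        simp
      · rw [hs]
        simp
    · rintro ⟨y, hy, r, hr, rfl⟩
      refine ⟨coord b y, ⟨y, hy, rfl⟩, r, hr, ?_⟩
      have e : y + r • η • b 2 = (1 : ℝ) • y + (r * η) • b 2 := by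
        rw [one_smul, mul_smul]
      rw [e, coord_comb, one_smul]
      simp only [coord, Prod.smul_mk, Prod.mk_add_mk]
      congr 1
      · have : cmap (b 0) (b 1) (b 2) = 0 := by
          apply ext_E2
          · simpa using hn 0 2 (by decide)
          · simpa using hn 1 2 (by decide)
        rw [this]
        simp
      · rw [hs]
        simp
  have hpreC : coord b ⁻¹' C' = C := (coord_injective b).preimage_image C
  have h1 := (mp_coord b).measure_preimage (thickV_compact hCc η).measurableSet.nullMeasurableSet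
  have h2 := (mp_coord b).measure_preimage hCc.measurableSet.nullMeasurableSet
  rw [hpre] at h1
  rw [hpreC] at h2
  have h3 := steinerV hCc hCv hη
  have hfst : Prod.fst '' C' = cmap (b 0) (b 1) '' C := by
    rw [hC', image_image]
    rfl
  rw [hfst] at h3
  rw [h1, h3, ← h2, projArea_eq hc (b.norm_eq_one 0) (b.norm_eq_one 1) (b.norm_eq_one 2)
    (hn 0 1 (by decide)) (hn 0 2 (by decide)) (hn 1 2 (by decide))]
  have hf1 : volume C ≠ ⊤ := hc.measure_lt_top.ne
  have hf2 : volume (cmap (b 0) (b 1) '' C) ≠ ⊤ :=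
    (cmap_image_compact hc _ _).measure_lt_top.ne
  rw [ENNReal.toReal_add hf1 (ENNReal.mul_ne_top ENNReal.ofReal_ne_top hf2), ENNReal.toReal_mul,
    ENNReal.toReal_ofReal (by positivity)]

/-- `‖g‖` times the projected area of `C` in the direction of `g`. -/
def HH (C : Set E3) (g : E3) : ℝ := ‖g‖ * projArea C (‖g‖⁻¹ • g)

lemma projArea_nonneg (C : Set E3) (u : E3) : 0 ≤ projArea C u := ENNReal.toReal_nonneg

lemma HH_nonneg (C : Set E3) (g : E3) : 0 ≤ HH C g :=
  mul_nonneg (norm_nonneg _) (projArea_nonneg _ _)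

lemma HH_zero (C : Set E3) : HH C 0 = 0 := by simp [HH]

lemma HH_smul (C : Set E3) (g : E3) {s : ℝ} (hs : 0 < s) : HH C (s • g) = s * HH C g := by
  unfold HH
  rw [norm_smul, Real.norm_of_nonneg hs.le]
  by_cases hg : g = 0
  · subst hg
    simp
  have hg' : ‖g‖ ≠ 0 := norm_ne_zero_iff.mpr hg
  have e : (s * ‖g‖)⁻¹ • s • g = ‖g‖⁻¹ • g := by
    rw [smul_smul]
    congr 1
    field_simp
  rw [e]
  ring

lemma unit_of_ne {g : E3} (hg : g ≠ 0) : ‖‖g‖⁻¹ • g‖ = 1 := by
  rw [norm_smul, norm_inv, norm_norm]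
  exact inv_mul_cancel₀ (norm_ne_zero_iff.mpr hg)

lemma volume_sweep_HH {C : Set E3} (hc : IsCompact C) (hv : Convex ℝ C) (g : E3) :
    (volume (sweep C g)).toReal = (volume C).toReal + 2 * HH C g := by
  by_cases hg : g = 0
  · subst hg
    have : sweep C 0 = C := by
      ext x
      constructor
      · rintro ⟨y, hy, r, _, rfl⟩
        simpa using hy
      · intro hx
        exact ⟨x, hx, 0, ⟨by norm_num, by norm_num⟩, by simp⟩
    rw [this, HH_zero]
    ring
  have hu := unit_of_ne hg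
  have e : g = ‖g‖ • ‖g‖⁻¹ • g := by
    rw [smul_smul, mul_inv_cancel₀ (norm_ne_zero_iff.mpr hg), one_smul]
  have h := volume_sweep hc hv hu (norm_nonneg g)
  rw [← e] at h
  rw [h]
  unfold HH
  ring

section zs

variable {ι : Type*} [Fintype ι]

/-- The sum of a set with the segments from `-G i` to `G i`, for `i ∈ T`. -/
def zs (K : Set E3) (G : ι → E3) (T : Finset ι) : Set E3 :=
  {x | ∃ y ∈ K, ∃ r : ι → ℝ, (∀ i, |r i| ≤ 1) ∧ x = y + ∑ i ∈ T, r i • G i}

lemma zs_empty (K : Set E3) (G : ι → E3) : zs K G ∅ = K := by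
  ext x
  constructor
  · rintro ⟨y, hy, r, _, rfl⟩
    simpa using hy
  · intro hx
    exact ⟨x, hx, 0, fun i => by simp, by simp⟩

lemma zs_insert [DecidableEq ι] (K : Set E3) (G : ι → E3) {T : Finset ι} {j : ι} (hj : j ∉ T) :
    zs K G (insert j T) = sweep (zs K G T) (G j) := by
  ext x
  constructor
  · rintro ⟨y, hy, r, hr, rfl⟩
    refine ⟨y + ∑ i ∈ T, r i • G i, ⟨y, hy, r, hr, rfl⟩, r j, abs_le.mp (hr j), ?_⟩
    rw [Finset.sum_insert hj]
    abel
  · rintro ⟨_, ⟨y, hy, r, hr, rfl⟩, r', hr', rfl⟩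
    refine ⟨y, hy, Function.update r j r', fun i => ?_, ?_⟩
    · by_cases h : i = j
      · subst h
        simpa using abs_le.mpr hr'
      · simpa [Function.update_of_ne h] using hr i
    · rw [Finset.sum_insert hj, Function.update_self]
      have : ∑ i ∈ T, Function.update r j r' i • G i = ∑ i ∈ T, r i • G i := by
        apply Finset.sum_congr rfl
        intro i hi
        have : i ≠ j := fun h => hj (h ▸ hi)
        rw [Function.update_of_ne this]
      rw [this]
      abel

lemma zs_compact {K : Set E3} (hK : IsCompact K) (G : ι → E3) (T : Finset ι) :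
    IsCompact (zs K G T) := by
  have hbox : IsCompact (Set.pi univ fun _ : ι => Icc (-1 : ℝ) 1) :=
    isCompact_univ_pi fun _ => isCompact_Icc
  have : zs K G T = (fun p : E3 × (ι → ℝ) => p.1 + ∑ i ∈ T, p.2 i • G i) ''
      (K ×ˢ Set.pi univ fun _ : ι => Icc (-1 : ℝ) 1) := by
    ext x
    constructor
    · rintro ⟨y, hy, r, hr, rfl⟩
      exact ⟨(y, r), ⟨hy, fun i _ => abs_le.mp (hr i)⟩, rfl⟩
    · rintro ⟨⟨y, r⟩, ⟨hy, hr⟩, rfl⟩
      exact ⟨y, hy, r, fun i => abs_le.mpr (hr i (mem_univ i)), rfl⟩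
  rw [this]
  apply (hK.prod hbox).image
  fun_prop

lemma zs_convex {K : Set E3} (hK : Convex ℝ K) (G : ι → E3) (T : Finset ι) :
    Convex ℝ (zs K G T) := by
  rintro _ ⟨y, hy, r, hr, rfl⟩ _ ⟨y', hy', r', hr', rfl⟩ a c ha hc hac
  refine ⟨a • y + c • y', hK hy hy' ha hc hac, fun i => a * r i + c * r' i, fun i => ?_, ?_⟩
  · have h1 := abs_le.mp (hr i)
    have h2 := abs_le.mp (hr' i)
    rw [abs_le]
    constructor <;> nlinarith [h1.1, h1.2, h2.1, h2.2]
  · simp only [smul_add, Finset.smul_sum, smul_smul, add_smul, Finset.sum_add_distrib]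
    abel

/-- A point of `K` plus a small vector lies in a dilate of `K`. -/
lemma add_mem_smul {K : Set E3} (hKc : Convex ℝ K) {ρ : ℝ} (hρ : 0 < ρ)
    (hB : Metric.closedBall (0 : E3) ρ ⊆ K) {D : ℝ} (hD : 0 ≤ D) {y z : E3} (hy : y ∈ K)
    (hz : ‖z‖ ≤ D) : y + z ∈ (1 + D / ρ) • K := by
  rcases hD.eq_or_lt with rfl | hD0
  · have : z = 0 := by simpa using hz
    subst this
    simpa using hy
  set t := 1 + D / ρ with ht
  have hd0 : 0 < D / ρ := by positivity
  have ht0 : 0 < t := by positivity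
  refine (mem_smul_set_iff_inv_smul_mem₀ ht0.ne' _ _).mpr ?_
  have hz' : ((D / ρ)⁻¹ • z) ∈ K := by
    apply hB
    rw [mem_closedBall_zero_iff, norm_smul, norm_inv, Real.norm_of_nonneg hd0.le]
    have : (D / ρ)⁻¹ = ρ / D := by field_simp
    rw [this]
    calc ρ / D * ‖z‖ ≤ ρ / D * D := by gcongr
      _ = ρ := by field_simp
  have hcomb := hKc hy hz' (a := t⁻¹) (b := t⁻¹ * (D / ρ)) (by positivity) (by positivity) (by
    rw [ht]
    field_simp)
  have e : t⁻¹ • (y + z) = t⁻¹ • y + (t⁻¹ * (D / ρ)) • (D / ρ)⁻¹ • z := by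
    rw [smul_smul, smul_add]
    congr 2
    field_simp
  rw [e]
  exact hcomb

lemma zs_subset {K : Set E3} (hKc : Convex ℝ K) {ρ : ℝ} (hρ : 0 < ρ)
    (hB : Metric.closedBall (0 : E3) ρ ⊆ K) (G : ι → E3) (T : Finset ι) :
    zs K G T ⊆ (1 + (∑ i, ‖G i‖) / ρ) • K := by
  rintro _ ⟨y, hy, r, hr, rfl⟩
  apply add_mem_smul hKc hρ hB (Finset.sum_nonneg fun i _ => norm_nonneg _) hy
  calc ‖∑ i ∈ T, r i • G i‖ ≤ ∑ i ∈ T, ‖r i • G i‖ := norm_sum_le _ _
    _ ≤ ∑ i ∈ T, ‖G i‖ := by
        apply Finset.sum_le_sum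
        intro i _
        rw [norm_smul, Real.norm_eq_abs]
        calc |r i| * ‖G i‖ ≤ 1 * ‖G i‖ := by gcongr; exact hr i
          _ = ‖G i‖ := one_mul _
    _ ≤ ∑ i, ‖G i‖ := Finset.sum_le_sum_of_subset_of_nonneg (Finset.subset_univ _)
        fun i _ _ => norm_nonneg _

/-- The projected area of a subset of a dilate. -/
lemma projArea_le_of_subset {A K : Set E3} (hA : IsCompact A) (hK : IsCompact K) {t : ℝ}
    (ht : 0 ≤ t) (hsub : A ⊆ t • K) {u : E3} (hu : ‖u‖ = 1) :
    projArea A u ≤ t ^ 2 * projArea K u := by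
  obtain ⟨b, rfl⟩ := exists_basis hu
  have hn : ∀ i j, i ≠ j → ⟪b i, b j⟫ = 0 := fun i j hij => b.orthonormal.2 hij
  rw [projArea_eq hA (b.norm_eq_one 0) (b.norm_eq_one 1) (b.norm_eq_one 2)
    (hn 0 1 (by decide)) (hn 0 2 (by decide)) (hn 1 2 (by decide)),
    projArea_eq hK (b.norm_eq_one 0) (b.norm_eq_one 1) (b.norm_eq_one 2)
    (hn 0 1 (by decide)) (hn 0 2 (by decide)) (hn 1 2 (by decide))]
  have h1 : cmap (b 0) (b 1) '' A ⊆ t • (cmap (b 0) (b 1) '' K) := by
    rintro _ ⟨x, hx, rfl⟩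
    obtain ⟨w, hw, rfl⟩ := hsub hx
    refine ⟨cmap (b 0) (b 1) w, ⟨w, hw, rfl⟩, ?_⟩
    have := cmap_add_smul (b 0) (b 1) w 0 t 0
    simpa using this.symm
  have hc2 : IsCompact (cmap (b 0) (b 1) '' K) := cmap_image_compact hK _ _
  have h2 : (volume (cmap (b 0) (b 1) '' A)).toReal
      ≤ (volume (t • (cmap (b 0) (b 1) '' K))).toReal :=
    ENNReal.toReal_mono (hc2.smul t).measure_lt_top.ne (measure_mono h1)
  rw [volume_smul_plane, ENNReal.toReal_mul, ENNReal.toReal_ofReal (sq_nonneg t)] at h2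
  exact h2

lemma HH_le_of_subset {A K : Set E3} (hA : IsCompact A) (hK : IsCompact K) {t : ℝ}
    (ht : 0 ≤ t) (hsub : A ⊆ t • K) (g : E3) : HH A g ≤ t ^ 2 * HH K g := by
  by_cases hg : g = 0
  · subst hg
    simp [HH_zero]
  have := projArea_le_of_subset hA hK ht hsub (unit_of_ne hg)
  unfold HH
  calc ‖g‖ * projArea A (‖g‖⁻¹ • g) ≤ ‖g‖ * (t ^ 2 * projArea K (‖g‖⁻¹ • g)) := by gcongr
    _ = _ := by ring

lemma volume_zs_le {K : Set E3} (hK : IsCompact K) (hKc : Convex ℝ K) {ρ : ℝ} (hρ : 0 < ρ)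
    (hB : Metric.closedBall (0 : E3) ρ ⊆ K) (G : ι → E3) (T : Finset ι) :
    (volume (zs K G T)).toReal ≤ (volume K).toReal
      + 2 * (1 + (∑ i, ‖G i‖) / ρ) ^ 2 * ∑ i ∈ T, HH K (G i) := by
  classical
  have hD : 0 ≤ (∑ i, ‖G i‖) / ρ := div_nonneg (Finset.sum_nonneg fun i _ => norm_nonneg _) hρ.le
  induction T using Finset.induction_on with
  | empty =>
    rw [zs_empty]
    simp
  | insert j T hj ih =>
    rw [zs_insert K G hj, volume_sweep_HH (zs_compact hK G T) (zs_convex hKc G T), Finset.sum_insert hj]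
    have h1 := HH_le_of_subset (zs_compact hK G T) hK (t := 1 + (∑ i, ‖G i‖) / ρ) (by positivity)
      (zs_subset hKc hρ hB G T) (G j)
    nlinarith [ih, h1]

end zs

end

end Vale.Agent.Lib.P237.Petty.AllK
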